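import Vale.Agent.P032.Words6.H220.Md
import Vale.Agent.P032.Words6.H46.Enc
import Vale.Agent.P032.Words6.H503.Mark
import Vale.Agent.P032.Words.H151.Pal4

/-!
# P032: a table excludes a six-coloured centre

`core_false`: the engine with ties, for the selections `H`, the palettes `Lam H u` and a table `D`; the
encoding of the palettes is a hypothesis (`alw`, `blw`, `bit`).
-/

open Set Filter Topology Metric

noncomputable section

namespace Vale.Agent.P032.Words6.H220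

open Vale.Agent.P032.Six Vale.Agent.P032.S5.H767 Vale.Agent.P032.Words6.H704
  Vale.Agent.P032.Words6.H46 Vale.Agent.P032.Words6.H343 Vale.Agent.P032.Words6.H503
  Vale.Agent.P032.Words.Trie

variable {U : Fin 6 → Set ℂ} {T : ℂ → Set (Fin 6)} {z : ℂ}
  {H : ℝ → (Fin 6 → Set (Fin 6)) → Prop}

theorem ofNat_rot (k : ℕ) : (Fin.ofNat 6 ((k + 1) % 6) : Fin 6) = Fin.ofNat 6 k + 1 := by
  apply Fin.ext
  simp [Fin.val_add]

/-- at a tie the two palettes are all colours -/
theorem no_tie_gen (C : Six6 U T z) (S : SelH T z H) {v : ℝ} (hv : Gn T z v) {k : Fin 6}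
    (h3 : (Lam H v k).ncard = 3) (ht : TieP T z (Lam H v k)) : False := by
  have h4 := S.lam_eq C h3
  obtain ⟨y, hy, h1, h2⟩ := ht
  have h6 := (h1 _ (dist_pt z _)).1 h4.symm
  have h5 : pt z (v + ((k + 3).val : ℝ)) = 2 * z - pt z (v + (k.val : ℝ)) := pt_fin3 z v k
  have h7 : T (pt z (v + ((k + 3).val : ℝ))) = (Lam H v k)ᶜ :=
    (h2 _ (dist_pt z _)).2 (by rw [h5, h6])
  have h8 := C.anti hv k
  rw [h7, ← h4, Set.union_compl_self, Set.ncard_univ, Nat.card_eq_fintype_card,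
    Fintype.card_fin] at h8
  omega

/-- ties of one class happen at one time modulo one -/
theorem tie_once (C : Six6 U T z) (S : SelH T z H) {u u' : ℝ} {k k' : Fin 6}
    (h3 : (Lam H u k).ncard = 3) (ht : TieP T z (Lam H u k)) (he : Lam H u k = Lam H u' k') :
    ∃ n : ℤ, u' = u + n := by
  obtain ⟨y, hy, h1, -⟩ := ht
  have h4 := (h1 _ (dist_pt z _)).1 (S.lam_eq C h3).symm
  have h5 := S.lam_eq C (u := u') (k := k') (by rw [← he]; exact h3)
  have h6 := (h1 _ (dist_pt z _)).1 (h5.symm.trans he.symm)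
  obtain ⟨n, hn⟩ := pt_eq_int (h4.trans h6.symm)
  refine ⟨(k.val : ℤ) - k'.val + 6 * n, ?_⟩
  push_cast
  linarith

/-- **A table excludes a six-coloured centre**, encoding as a hypothesis. -/
theorem core_false (C : Six6 U T z) (S : SelH T z H)
    (hleg : ∀ v h, H v h → Leg (MC T z) h)
    (hrot : ∀ v h, H v h → H (v + 1) (fun k => h (k + 1)))
    {D : Dat} (hB : BoxTab D) (hr : ∀ t : ℕ → ℕ, ties D t < 2 ^ D.r) (ok : okD D = true)
    {f : Fin 6 → ℕ} (E : Enc D f (MC T z))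
    (hT : ∀ X : Set (Fin 6), tcode D (code f X) ≠ 0 → X.ncard = 3 ∧ TieP T z X)
    (hinj : ∀ X Y : Set (Fin 6), ∀ c, (tcode D (code f X)).testBit c = true →
      (tcode D (code f Y)).testBit c = true → X = Y)
    (alw : ∀ u, Alw D (td D f (Lam H u)))
    (blw : ∀ u h, Acc H u h → Blw D (td D f (Lam H u)) (wd D f h))
    (bit : ∀ u c, (ties D (td D f (Lam H u))).testBit c = true →
      ∃ k, (tcode D (code f (Lam H u k))).testBit c = true) : False := by
  obtain ⟨-, -, cmp, R, r0, r1, r2⟩ := hB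
  have hne : ∀ {X : Set (Fin 6)} {c : ℕ}, (tcode D (code f X)).testBit c = true →
      tcode D (code f X) ≠ 0 := by
    intro X c hc h0
    rw [h0, Nat.zero_testBit] at hc
    exact absurd hc (by simp)
  refine mark_false (κ := ℕ) (W := ℕ → ℕ) (H := fun v g => ∃ h, H v h ∧ g = wd D f h)
    (rot := fun g k => g ((k + 1) % 6)) ?_ ?_
    (Tie := fun c u => ∃ k, (tcode D (code f (Lam H u k))).testBit c = true) ?_ ?_
    (B := fun u g => Blw D (td D f (Lam H u)) g ∧ Leg6 D.A D.nb D.op g) ?_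
    (φ := fun h g Q => ∃ s, s < 2 ^ D.r ∧ (∀ c, s.testBit c = true → c ∈ Q) ∧
      Leg6 D.A D.nb D.op g ∧ R (cmp h) s (cmp g)) ?_ ?_ ?_ ?_
  · intro u
    refine (S.dense u).mono ?_
    rintro v ⟨h, hh⟩
    exact ⟨wd D f h, h, hh, rfl⟩
  · rintro v g ⟨h, hh, rfl⟩
    refine ⟨_, hrot v h hh, ?_⟩
    funext k
    change D.L.idxOf (code f (h (Fin.ofNat 6 ((k + 1) % 6)))) =
      D.L.idxOf (code f (h (Fin.ofNat 6 k + 1)))
    rw [ofNat_rot]
  · rintro c u u' ⟨k, hk⟩ ⟨k', hk'⟩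
    obtain ⟨h3, ht⟩ := hT _ (hne hk)
    exact tie_once C S h3 ht (hinj _ _ c hk hk')
  · rintro v g c ⟨h, hh, rfl⟩ ⟨k, hk⟩
    obtain ⟨h3, ht⟩ := hT _ (hne hk)
    exact no_tie_gen C S (S.gn v h hh) h3 ht
  · intro u
    filter_upwards [acc_near H u] with v hv
    rintro g ⟨h, hh, rfl⟩
    exact ⟨blw u h (hv h hh), enc_word ok E (hleg v h hh)⟩
  · rintro v g ⟨h, hh, rfl⟩
    have hl := enc_word ok E (hleg v h hh)
    exact ⟨0, Nat.two_pow_pos _, fun c hc => absurd hc (by simp), hl, r0 _ hl⟩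
  · rintro h g Q Q' hQ ⟨s, h1, h2, h3, h4⟩
    exact ⟨s, h1, fun c hc => hQ (h2 c hc), h3, h4⟩
  · rintro u g g' ⟨b1, l1⟩ ⟨b2, l2⟩ h Q hQ ⟨s, h1, h2, h3, h4⟩
    have hand : Nat.land s (ties D (td D f (Lam H u))) = 0 := by
      refine Nat.eq_of_testBit_eq fun c => ?_
      rw [Nat.zero_testBit]
      change (s &&& ties D (td D f (Lam H u))).testBit c = false
      rw [Nat.testBit_and]
      by_contra hcon
      rw [Bool.not_eq_false, Bool.and_eq_true] at hcon
      exact hQ c (h2 c hcon.1) (bit u c hcon.2)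
    refine ⟨Nat.lor s (ties D (td D f (Lam H u))), Nat.or_lt_two_pow h1 (hr _), ?_, l2,
      r1 _ g g' (cmp h) s (alw u) l1 l2 b1 b2 h1 hand h4⟩
    intro c hc
    have hc : (s ||| ties D (td D f (Lam H u))).testBit c = true := hc
    rw [Nat.testBit_or, Bool.or_eq_true] at hc
    rcases hc with hc | hc
    · exact Or.inl (h2 c hc)
    · exact Or.inr (bit u c hc)
  · rintro v g Q ⟨h, hh, rfl⟩ ⟨s, h1, -, h3, h4⟩
    exact r2 _ _ s (enc_word ok E (hleg v h hh)) h3 (fun k _ => rfl) h1 h4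

end Vale.Agent.P032.Words6.H220
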