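import Vale.Agent.P032.Words6.H220.Core
import Vale.Agent.P032.Words6.H46.Enc2

/-!
# P032: a table leaf excludes a six-coloured centre

`okL D l`: the finite check of the mode list `l` against the table `D`.  `leaf_false`: a box table whose
letters are the broken pairs, with the modes of `l`, excludes a six-coloured centre.
-/

open Set Filter Topology Metric

noncomputable section

namespace Vale.Agent.P032.Words6.H220

open Vale.Agent.P032.Six Vale.Agent.P032.S5.H767 Vale.Agent.P032.Words6.H704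
  Vale.Agent.P032.Words6.H46 Vale.Agent.P032.Words6.H343 Vale.Agent.P032.Words6.H503
  Vale.Agent.P032.Words.Trie

variable {U : Fin 6 → Set ℂ} {T : ℂ → Set (Fin 6)} {z : ℂ}
  {H : ℝ → (Fin 6 → Set (Fin 6)) → Prop}

/-- the mode `m` of the class with the mask `c` -/
def ModeP (T : ℂ → Set (Fin 6)) (z : ℂ) (f : Fin 6 → ℕ) (c : ℕ) (m : Fin 3) : Prop :=
  ∀ X : Set (Fin 6), X.ncard = 3 → code f X = c →
    if m = 0 then (∀ q, dist q z = 1 → T q ≠ X)
    else if m = 1 then (∀ q, dist q z = 1 → T q ≠ Xᶜ)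
    else (∃ y, dist y z = 1 ∧ (∀ q, dist q z = 1 → (T q = X ↔ q = y)) ∧
      ∀ q, dist q z = 1 → (T q = Xᶜ ↔ q = 2 * z - y))

/-- three bits -/
def threeB (m : ℕ) : Bool :=
  (List.range 6).any fun i => (List.range 6).any fun j => (List.range 6).any fun k =>
    Nat.blt i j && Nat.blt j k && Nat.beq m ((2 ^ i ||| 2 ^ j) ||| 2 ^ k)

/-- two letters below a mask -/
def twoL (L : List ℕ) (m : ℕ) : Bool :=
  L.any fun x => L.any fun y => !(Nat.beq x y) && Nat.beq (Nat.land x m) x &&
    Nat.beq (Nat.land y m) y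

/-- the check of the modes: every triple with two letters is a palette or never occurs, the tie palettes are
the classes in the third mode -/
def okL (D : Dat) (l : List (ℕ × Fin 3)) : Bool :=
  (List.range 64).all (fun m => !(threeB m) || (!(twoL D.L m) || (D.P.contains m ||
    (l.any (fun p => Nat.beq p.1 m && decide (p.2 = 0)) ||
      l.any (fun p => Nat.beq p.1 (Nat.xor 63 m) && decide (p.2 = 1)))))) &&
  (List.range D.N).all (fun p => Nat.beq (D.tie.getD p 0) 0 || (threeB (D.P.getD p 0) &&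
    l.any fun c => Nat.beq c.1 (D.P.getD p 0) && decide (c.2 = 2))) &&
  Nat.ble D.tie.length D.N && D.tie.all (fun m => Nat.blt m (2 ^ D.r))

variable {f : Fin 6 → ℕ}

theorem code_or (hi : Function.Injective f) (hl : ∀ i, f i < 6) (s t : Set (Fin 6)) :
    code f s ||| code f t = code f (s ∪ t) := by
  refine ext_mask hi hl (Nat.or_lt_two_pow (n := 6) (code_lt f s) (code_lt f t)) (code_lt f _)
    fun i => ?_
  rw [Nat.testBit_or, Bool.or_eq_true, tb hi hl, tb hi hl, tb hi hl]
  exact Iff.rfl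

theorem code_triple (hi : Function.Injective f) (hl : ∀ i, f i < 6) (a b c : Fin 6) :
    code f {a, b, c} = (2 ^ f a ||| 2 ^ f b) ||| 2 ^ f c := by
  have h : ({a, b, c} : Set (Fin 6)) = {a, b} ∪ {c} := by
    ext i
    simp only [mem_insert_iff, mem_singleton_iff, mem_union]
    tauto
  rw [h, ← code_or hi hl, code_pair hi hl, code_single hi hl]

theorem three_num : ∀ i j k : Fin 6, i ≠ j → i ≠ k → j ≠ k →
    threeB ((2 ^ i.val ||| 2 ^ j.val) ||| 2 ^ k.val) = true := by
  decide +kernel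

theorem three_of (hi : Function.Injective f) (hl : ∀ i, f i < 6) {X : Set (Fin 6)}
    (hX : X.ncard = 3) : threeB (code f X) = true := by
  obtain ⟨a, b, c, hab, hac, hbc, rfl⟩ := Set.ncard_eq_three.1 hX
  rw [code_triple hi hl]
  exact three_num ⟨f a, hl a⟩ ⟨f b, hl b⟩ ⟨f c, hl c⟩ (fun h => hab (hi (Fin.mk.inj_iff.1 h)))
    (fun h => hac (hi (Fin.mk.inj_iff.1 h))) (fun h => hbc (hi (Fin.mk.inj_iff.1 h)))

theorem of_three (hi : Function.Injective f) (hl : ∀ i, f i < 6) {X : Set (Fin 6)}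
    (h : threeB (code f X) = true) : X.ncard = 3 := by
  unfold threeB at h
  obtain ⟨i, hi1, h⟩ := List.any_eq_true.1 h
  obtain ⟨j, hj1, h⟩ := List.any_eq_true.1 h
  obtain ⟨k, hk1, h⟩ := List.any_eq_true.1 h
  rw [Bool.and_eq_true, Bool.and_eq_true, blt_iff, blt_iff, Nat.beq_eq] at h
  obtain ⟨⟨h1, h2⟩, h3⟩ := h
  obtain ⟨a, rfl⟩ := ex_f hi hl (List.mem_range.1 hi1)
  obtain ⟨b, rfl⟩ := ex_f hi hl (List.mem_range.1 hj1)
  obtain ⟨c, rfl⟩ := ex_f hi hl (List.mem_range.1 hk1)
  rw [← code_triple hi hl] at h3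
  rw [code_inj hi hl h3]
  refine Set.ncard_eq_three.2 ⟨a, b, c, ?_, ?_, ?_, rfl⟩
  · rintro rfl; omega
  · rintro rfl; omega
  · rintro rfl; omega

theorem tcode_ne {D : Dat} (O : OkS D) (hlen : D.tie.length ≤ D.N) {m : ℕ}
    (h : tcode D m ≠ 0) : D.P.idxOf m < D.N ∧ D.P.getD (D.P.idxOf m) 0 = m := by
  have h1 : D.P.idxOf m < D.N := by
    by_contra hcon
    apply h
    unfold tcode
    rw [List.getD_eq_default]
    omega
  have h2 : m ∈ D.P := List.idxOf_lt_length_iff.1 (by rw [O.lenP]; exact h1)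
  exact ⟨h1, (idx_spec h2).2⟩

/-- **A leaf**, the encoding of the palettes as a hypothesis. -/
theorem leaf_core (C : Six6 U T z)
    (hact : ∀ i, ∃ q, dist q z = 1 ∧ i ∈ T q ∧ (T q).ncard = 2) (S : SelH T z H)
    (hleg : ∀ v h, H v h → Leg (MC T z) h)
    (hrot : ∀ v h, H v h → H (v + 1) (fun k => h (k + 1)))
    {D : Dat} (hB : BoxTab D) (ok : okD D = true) (E : Enc D f (MC T z))
    {l : List (ℕ × Fin 3)} (hl : okL D l = true) (hm : ∀ p ∈ l, ModeP T z f p.1 p.2)
    (alw : ∀ u, Sys (MC T z) (Acc H u) (Lam H u) → Md D f (Lam H u) →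
      Alw D (td D f (Lam H u)))
    (blw : ∀ u, Sys (MC T z) (Acc H u) (Lam H u) → Md D f (Lam H u) → ∀ h, Acc H u h →
      Blw D (td D f (Lam H u)) (wd D f h))
    (bit : ∀ u, Sys (MC T z) (Acc H u) (Lam H u) → Md D f (Lam H u) → ∀ c,
      (ties D (td D f (Lam H u))).testBit c = true →
      ∃ k, (tcode D (code f (Lam H u k))).testBit c = true) : False := by
  have O := okS ok
  unfold okL at hl
  rw [Bool.and_eq_true, Bool.and_eq_true, Bool.and_eq_true] at hl
  obtain ⟨⟨⟨k1, k2⟩, k3⟩, k4⟩ := hl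
  have hlen : D.tie.length ≤ D.N := Nat.le_of_ble_eq_true k3
  have hP : ∀ X : Set (Fin 6), X.ncard = 3 → (∃ a b c d : Fin 6, a ≠ b ∧ c ≠ d ∧ MC T z a b ∧
      MC T z c d ∧ ({a, b} : Set (Fin 6)) ≠ {c, d} ∧ ({a, b} : Set (Fin 6)) ⊆ X ∧
      ({c, d} : Set (Fin 6)) ⊆ X) → code f X ∈ D.P ∨ ∀ q, dist q z = 1 → T q ≠ X := by
    rintro X hX ⟨a, b, c, d, hab, hcd, m1, m2, hne, s1, s2⟩
    have h := all_range k1 (code_lt f X)
    rw [three_of E.inj E.lt hX] at h
    have h2 : twoL D.L (code f X) = true := by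
      unfold twoL
      refine List.any_eq_true.2 ⟨code f {a, b}, ?_, List.any_eq_true.2 ⟨code f {c, d}, ?_, ?_⟩⟩
      · rw [code_pair E.inj E.lt]; exact (E.mem a b hab).1 m1
      · rw [code_pair E.inj E.lt]; exact (E.mem c d hcd).1 m2
      · rw [Bool.and_eq_true, Bool.and_eq_true, Bool.not_eq_true', beq_false_iff, Nat.beq_eq,
          Nat.beq_eq, code_and E.inj E.lt, code_and E.inj E.lt, Set.inter_eq_left.2 s1,
          Set.inter_eq_left.2 s2]
        exact ⟨⟨fun h => hne (code_inj E.inj E.lt h), rfl⟩, rfl⟩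
    rw [h2, Bool.not_true, Bool.false_or, Bool.false_or, Bool.or_eq_true, Bool.or_eq_true] at h
    rcases h with h | h | h
    · exact Or.inl (List.contains_iff_mem.1 h)
    · right
      obtain ⟨p, hp, h⟩ := List.any_eq_true.1 h
      rw [Bool.and_eq_true, Nat.beq_eq, decide_eq_true_iff] at h
      have h5 := hm p hp X hX h.1.symm
      rw [h.2, if_pos rfl] at h5
      exact h5
    · right
      obtain ⟨p, hp, h⟩ := List.any_eq_true.1 h
      rw [Bool.and_eq_true, Nat.beq_eq, decide_eq_true_iff, code_compl E.inj E.lt] at h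
      have hX2 : (Xᶜ).ncard = 3 := by
        have := Set.ncard_add_ncard_compl X (Set.toFinite _) (Set.toFinite _)
        rw [Nat.card_eq_fintype_card, Fintype.card_fin] at this
        omega
      have h5 := hm p hp Xᶜ hX2 h.1.symm
      rw [h.2, if_neg (by decide), if_pos rfl, compl_compl] at h5
      exact h5
  have hT : ∀ X : Set (Fin 6), tcode D (code f X) ≠ 0 → X.ncard = 3 ∧ TieP T z X := by
    intro X hX
    obtain ⟨h1, h2⟩ := tcode_ne O hlen hX
    have h := all_range k2 h1
    rw [Bool.or_eq_true, Nat.beq_eq] at h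
    rcases h with h | h
    · exact absurd h hX
    rw [h2, Bool.and_eq_true] at h
    have h3 := of_three E.inj E.lt h.1
    refine ⟨h3, ?_⟩
    obtain ⟨p, hp, h⟩ := List.any_eq_true.1 h.2
    rw [Bool.and_eq_true, Nat.beq_eq, decide_eq_true_iff] at h
    have h5 := hm p hp X h3 h.1.symm
    rw [h.2, if_neg (by decide), if_neg (by decide)] at h5
    exact h5
  have hinj : ∀ X Y : Set (Fin 6), ∀ c, (tcode D (code f X)).testBit c = true →
      (tcode D (code f Y)).testBit c = true → X = Y := by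
    intro X Y c hX hY
    have hne : ∀ {Z : Set (Fin 6)}, (tcode D (code f Z)).testBit c = true →
        tcode D (code f Z) ≠ 0 := by
      intro Z hZ h0
      rw [h0, Nat.zero_testBit] at hZ
      exact absurd hZ (by simp)
    obtain ⟨a1, a2⟩ := tcode_ne O hlen (hne hX)
    obtain ⟨b1, b2⟩ := tcode_ne O hlen (hne hY)
    by_cases hpq : D.P.idxOf (code f X) = D.P.idxOf (code f Y)
    · exact code_inj E.inj E.lt (by rw [← a2, ← b2, hpq])
    · have h1 := (O.ne _ a1 _ b1 hpq).2
      have h2 : (Nat.land (tcode D (code f X)) (tcode D (code f Y))).testBit c = true := by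
        change ((tcode D (code f X)) &&& (tcode D (code f Y))).testBit c = true
        rw [Nat.testBit_and, hX, hY]
        rfl
      unfold tcode at h2
      rw [h1, Nat.zero_testBit] at h2
      exact absurd h2 (by simp)
  have sy := sys_of C S hact hleg
  have md := md_of C S hact hleg hP hT
  exact core_false C S hleg hrot hB (fun t => tmk_lt k4 _) ok E hT hinj
    (fun u => alw u (sy u) (md u)) (fun u => blw u (sy u) (md u)) (fun u => bit u (sy u) (md u))

/-- **A table leaf excludes a six-coloured centre.** -/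
theorem leaf_false (C : Six6 U T z)
    (hact : ∀ i, ∃ q, dist q z = 1 ∧ i ∈ T q ∧ (T q).ncard = 2) (S : SelH T z H)
    (hleg : ∀ v h, H v h → Leg (MC T z) h)
    (hrot : ∀ v h, H v h → H (v + 1) (fun k => h (k + 1)))
    {D : Dat} (hB : BoxTab D) (ok : okD D = true) (E : Enc D f (MC T z))
    {l : List (ℕ × Fin 3)} (hl : okL D l = true) (hm : ∀ p ∈ l, ModeP T z f p.1 p.2) : False :=
  leaf_core C hact S hleg hrot hB ok E hl hm (fun _ sy md => enc_tuple ok E sy md)
    (fun _ sy md _ hh => enc_blw ok E sy md hh) (fun _ _ _ _ h => ties_bit.1 h)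

end Vale.Agent.P032.Words6.H220
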