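import Vale.Agent.P032.Words6.H220.Sys

/-!
# P032: the mode rules of the tables hold for the accumulating palettes

`md_of`: if all occurring triples with two letters are palettes of `D` and every tie palette of `D` occurs at
one point only, with its complement at the antipode only, then `Md D f (Lam H u)`.
-/

open Set Filter Topology Metric

noncomputable section

namespace Vale.Agent.P032.Words6.H220

open Vale.Agent.P032.Six Vale.Agent.P032.S5.H767 Vale.Agent.P032.Words6.H704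
  Vale.Agent.P032.Words6.H46 Vale.Agent.P032.Words6.H343 Vale.Agent.P032.Words6.H503
  Vale.Agent.P032.Words.Trie

variable {U : Fin 6 → Set ℂ} {T : ℂ → Set (Fin 6)} {z : ℂ}
  {H : ℝ → (Fin 6 → Set (Fin 6)) → Prop}

/-- `X` occurs at one point only, its complement at the antipode only -/
def TieP (T : ℂ → Set (Fin 6)) (z : ℂ) (X : Set (Fin 6)) : Prop :=
  ∃ y, dist y z = 1 ∧ (∀ q, dist q z = 1 → (T q = X ↔ q = y)) ∧
    ∀ q, dist q z = 1 → (T q = Xᶜ ↔ q = 2 * z - y)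

/-- a palette whose complement is the palette at the antipode is opposite to its complement -/
theorem lam_opp (C : Six6 U T z) (S : SelH T z H)
    (hact : ∀ i, ∃ q, dist q z = 1 ∧ i ∈ T q ∧ (T q).ncard = 2) {u : ℝ} {k : Fin 6}
    (h3 : (Lam H u k).ncard = 3) (hT : T (pt z (u + ((k + 3).val : ℝ))) = (Lam H u k)ᶜ) :
    Lam H u (k + 3) = (Lam H u k)ᶜ := by
  have h1 : Lam H u (k + 3) ⊆ (Lam H u k)ᶜ := hT ▸ S.lam_sub C u (k + 3)
  rcases S.lam_card C u (k + 3) with h2 | h2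
  · obtain ⟨i, hi, hi2⟩ := S.lam_gap3 C hact u k h3 h2
    exact absurd hi (h1 hi2)
  · rw [S.lam_eq C h2, hT]

theorem opp_of_tie (C : Six6 U T z) (S : SelH T z H)
    (hact : ∀ i, ∃ q, dist q z = 1 ∧ i ∈ T q ∧ (T q).ncard = 2) {u : ℝ} {k : Fin 6}
    (h3 : (Lam H u k).ncard = 3) (ht : TieP T z (Lam H u k) ∨ TieP T z (Lam H u k)ᶜ) :
    Lam H u (k + 3) = (Lam H u k)ᶜ := by
  have h4 := S.lam_eq C h3
  have h5 : pt z (u + ((k + 3).val : ℝ)) = 2 * z - pt z (u + (k.val : ℝ)) := pt_fin3 z u k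
  refine lam_opp C S hact h3 ?_
  rcases ht with ⟨y, hy, h1, h2⟩ | ⟨y, hy, h1, h2⟩
  · have h6 := (h1 _ (dist_pt z _)).1 h4.symm
    rw [h5]
    refine (h2 _ ?_).2 (by rw [h6])
    rw [← h5]
    exact dist_pt z _
  · rw [compl_compl] at h2
    have h6 := (h2 _ (dist_pt z _)).1 h4.symm
    rw [h5]
    refine (h1 _ ?_).2 (by rw [h6]; ring)
    rw [← h5]
    exact dist_pt z _

theorem pt_inj_fin {u : ℝ} {k k' : Fin 6}
    (h : pt z (u + (k.val : ℝ)) = pt z (u + (k'.val : ℝ))) : k = k' := by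
  obtain ⟨n, hn⟩ := pt_eq_int h
  have h1 : ((k'.val : ℤ) : ℝ) = ((k.val : ℤ) : ℝ) + ((6 * n : ℤ) : ℝ) := by
    push_cast
    linarith
  have h2 : (k'.val : ℤ) = (k.val : ℤ) + 6 * n := by exact_mod_cast h1
  have h3 := k.isLt
  have h4 := k'.isLt
  apply Fin.ext
  omega

theorem one_of_tie (C : Six6 U T z) (S : SelH T z H) {u : ℝ} {k k' : Fin 6}
    (h3 : (Lam H u k).ncard = 3) (ht : TieP T z (Lam H u k)) (he : Lam H u k = Lam H u k') :
    k = k' := by
  obtain ⟨y, hy, h1, -⟩ := ht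
  have h4 := (h1 _ (dist_pt z _)).1 (S.lam_eq C h3).symm
  have h5 := S.lam_eq C (k := k') (by rw [← he]; exact h3)
  have h6 := (h1 _ (dist_pt z _)).1 (h5.symm.trans he.symm)
  exact pt_inj_fin (h4.trans h6.symm)

/-- **The mode rules at one time.** -/
theorem md_of (C : Six6 U T z) (S : SelH T z H)
    (hact : ∀ i, ∃ q, dist q z = 1 ∧ i ∈ T q ∧ (T q).ncard = 2) {D : Dat} {f : Fin 6 → ℕ}
    {M : Fin 6 → Fin 6 → Prop} (hleg : ∀ v h, H v h → Leg M h)
    (hP : ∀ X : Set (Fin 6), X.ncard = 3 → (∃ a b c d : Fin 6, a ≠ b ∧ c ≠ d ∧ M a b ∧ M c d ∧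
      ({a, b} : Set (Fin 6)) ≠ {c, d} ∧ ({a, b} : Set (Fin 6)) ⊆ X ∧ ({c, d} : Set (Fin 6)) ⊆ X) →
      code f X ∈ D.P ∨ ∀ q, dist q z = 1 → T q ≠ X)
    (hT : ∀ X : Set (Fin 6), tcode D (code f X) ≠ 0 → X.ncard = 3 ∧ TieP T z X) (u : ℝ) :
    Md D f (Lam H u) where
  mem := by
    intro k h3
    obtain ⟨h, h', hh, hh', hne, hun⟩ := lam_span2 S h3
    obtain ⟨v, hv⟩ := hh.exists
    obtain ⟨v', hv'⟩ := hh'.exists
    obtain ⟨a, b, hab, hM, e1⟩ := (hleg v h hv).pair k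
    obtain ⟨c, d, hcd, hM', e2⟩ := (hleg v' h' hv').pair k
    have h1 : ({a, b} : Set (Fin 6)) ⊆ Lam H u k := by rw [← e1]; exact acc_sub_lam hh k
    have h2 : ({c, d} : Set (Fin 6)) ⊆ Lam H u k := by rw [← e2]; exact acc_sub_lam hh' k
    rcases hP _ h3 ⟨a, b, c, d, hab, hcd, hM, hM', by rw [← e1, ← e2]; exact hne, h1, h2⟩ with
      h4 | h4
    · exact h4
    · exact absurd (S.lam_eq C h3).symm (h4 _ (dist_pt z _))
  opp := by
    intro k h3 h1
    refine opp_of_tie C S hact h3 ?_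
    rcases h1 with h1 | h1
    · exact Or.inl (hT _ h1).2
    · exact Or.inr (hT _ h1).2
  one := by
    intro k k' h1 h2
    exact one_of_tie C S (hT _ h1).1 (hT _ h1).2 h2

end Vale.Agent.P032.Words6.H220
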