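import Vale.Agent.P032.Words6.H343.LamAlt
import Vale.Agent.P032.Words6.H46.EncD
import Vale.Agent.P032.Words6.H704.K6Tab

/-!
# P032: the rules of the tables hold for the accumulating selections

`sys_of`: if all selected words are legal, then the accumulating words and palettes at a time satisfy the
rules `Sys`.
-/

open Set Filter Topology Metric

noncomputable section

namespace Vale.Agent.P032.Words6.H220

open Vale.Agent.P032.Six Vale.Agent.P032.S5.H767 Vale.Agent.P032.Words6.H704
  Vale.Agent.P032.Words6.H46 Vale.Agent.P032.Words6.H343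

variable {U : Fin 6 → Set ℂ} {T : ℂ → Set (Fin 6)} {z : ℂ}
  {H : ℝ → (Fin 6 → Set (Fin 6)) → Prop}

/-- **The rules at one time**, for any letter relation `M`. -/
theorem sys_gen (C : Six6 U T z) (S : SelH T z H)
    (hact : ∀ i, ∃ q, dist q z = 1 ∧ i ∈ T q ∧ (T q).ncard = 2) {M : Fin 6 → Fin 6 → Prop}
    (hleg : ∀ v h, H v h → Leg M h) (u : ℝ) : Sys M (Acc H u) (Lam H u) where
  leg := fun h hh => by
    obtain ⟨v, hv⟩ := hh.exists
    exact hleg v h hv
  sub := fun h hh k => acc_sub_lam hh k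
  span := fun k i hi => hi
  card := S.lam_card C u
  nb := S.lam_nb C u
  nb1 := S.lam_nb1 C u
  gap := S.lam_gap3 C hact u
  g33 := fun k s h3 h3' hs h hh => S.lam_g33 C hact u k h3 h3' hs hh
  alt := by
    rintro ⟨h1, h2, h3, h4, h5, h6, h7⟩
    exact lam_alt' C S hact h5 h6 h7 h1.symm h3.symm (h2.symm.trans h1.symm)
      (h4.symm.trans h3.symm)

/-- **The rules at one time.** -/
theorem sys_of (C : Six6 U T z) (S : SelH T z H)
    (hact : ∀ i, ∃ q, dist q z = 1 ∧ i ∈ T q ∧ (T q).ncard = 2)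
    (hleg : ∀ v h, H v h → Leg (MC T z) h) (u : ℝ) : Sys (MC T z) (Acc H u) (Lam H u) :=
  sys_gen C S hact hleg u

end Vale.Agent.P032.Words6.H220
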